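import Vale.Agent.Lib.P335.Gr.Avg
import Vale.Agent.Lib.P335.Bip.Avg

/-!
# Transfer of the three-row inequality from tables to graph classes (problem P335)

`class_transfer`: if a graph class `gcls T G0` is in bijection with a table space in such a way
that the three pair relations inside `T` correspond to the three row-pair relations of the
tables, then the three-row inequality for tables gives the corresponding inequality on the
class. `globalize`: the class-level inequalities for all classes give the inequality for the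
inner products on the whole state space.
-/

namespace Vale.Agent.Lib.P335.H2

open Finset
open Classical
open Vale.Agent.Lib.P335
open Vale.Agent.Lib.P335.Gr
open Vale.Agent.Lib.P335.Bip (ip)

variable {n : ℕ} {d : Fin n → ℕ}

/-- The sum of the class averages of `h` over all graphs is the sum of `h`. -/
theorem sum_gavg (W : Finset (Fin n)) (h : Omega d → ℝ) : ∑ G, gavg W h G = ∑ G, h G := by
  have h1 := gavg_symm W h (fun _ => (1 : ℝ))
  rw [gavg_const] at h1
  unfold ip at h1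
  simpa using h1

/-- The sum over a class of the averages over finer classes is the sum over the class. -/
theorem sum_gcls_gavg {W W' : Finset (Fin n)} (hW : W ⊆ W') (f : Omega d → ℝ) (G0 : Omega d) :
    ∑ G ∈ gcls W' G0, gavg W f G = ∑ G ∈ gcls W' G0, f G := by
  have h := congrFun (gavg_tower W W' hW f).1 G0
  rw [gavg_apply, gavg_apply] at h
  have hne := card_gcls_ne_zero W' G0
  field_simp at h
  exact h

/-- From the class-level three-pair inequalities to the inequality between inner products. -/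
theorem globalize (T b1 b2 b3 : Finset (Fin n)) (f : Omega d → ℝ)
    (hcls : ∀ G0 : Omega d,
      ∑ G ∈ gcls T G0, f G * (gavg b1 f G + gavg b2 f G + gavg b3 f G)
        ≤ 2 * ∑ G ∈ gcls T G0, f G ^ 2
          + (∑ G ∈ gcls T G0, f G) ^ 2 / ((gcls T G0).card : ℝ)) :
    ip f (gavg b1 f) + ip f (gavg b2 f) + ip f (gavg b3 f)
      ≤ 2 * ip f f + ip f (gavg T f) := by
  have key : 0 ≤ ∑ G : Omega d, (2 * f G ^ 2 + f G * gavg T f G
      - f G * (gavg b1 f G + gavg b2 f G + gavg b3 f G)) := by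
    rw [← sum_gavg T]
    refine sum_nonneg fun G0 _ => ?_
    rw [gavg_apply]
    refine div_nonneg ?_ (Nat.cast_nonneg _)
    have e1 : ∑ G ∈ gcls T G0, f G * gavg T f G
        = (∑ G ∈ gcls T G0, f G) ^ 2 / ((gcls T G0).card : ℝ) := by
      have h1 : ∀ G ∈ gcls T G0, f G * gavg T f G = f G * gavg T f G0 := by
        intro G hG
        rw [gavg_apply_of_agree T f G0 G ((mem_gcls T G0 G).mp hG)]
      rw [sum_congr rfl h1, ← sum_mul, gavg_apply]
      ring
    have h2 := hcls G0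
    rw [sum_sub_distrib, sum_add_distrib, ← mul_sum, e1]
    linarith
  have e2 : ∑ G : Omega d, (2 * f G ^ 2 + f G * gavg T f G
      - f G * (gavg b1 f G + gavg b2 f G + gavg b3 f G))
      = 2 * ip f f + ip f (gavg T f)
        - (ip f (gavg b1 f) + ip f (gavg b2 f) + ip f (gavg b3 f)) := by
    unfold ip
    rw [sum_sub_distrib, sum_add_distrib, ← mul_sum]
    have h3 : ∑ G : Omega d, f G * (gavg b1 f G + gavg b2 f G + gavg b3 f G)
        = ∑ G : Omega d, f G * gavg b1 f G + ∑ G : Omega d, f G * gavg b2 f G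
          + ∑ G : Omega d, f G * gavg b3 f G := by
      rw [← sum_add_distrib, ← sum_add_distrib]
      exact sum_congr rfl fun G _ => by ring
    have h4 : ∑ G : Omega d, f G ^ 2 = ∑ G : Omega d, f G * f G :=
      sum_congr rfl fun G _ => by ring
    rw [h3, h4]
  rw [e2] at key
  linarith

section transfer

variable {R C : Type} [Fintype R] [DecidableEq R] [Fintype C] [DecidableEq C]
variable {r : R → ℕ} {c : C → ℕ}

/-- Transport of a pair average through a bijection between a graph class and the tables. -/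
theorem avg_transfer (T b : Finset (Fin n)) (hb : b ⊆ T) (G0 : Omega d) (W : Finset R)
    (φ : Omega d → Bip.Tab r c)
    (hinj : ∀ G ∈ gcls T G0, ∀ G' ∈ gcls T G0, φ G = φ G' → G = G')
    (hsurj : ∀ y : Bip.Tab r c, ∃ G ∈ gcls T G0, φ G = y)
    (hrel : ∀ G ∈ gcls T G0, ∀ G' ∈ gcls T G0,
      GAgree b G.1 G'.1 ↔ Bip.AgreeOff W (φ G).1 (φ G').1)
    (f : Omega d → ℝ) (F : Bip.Tab r c → ℝ) (m : ℝ)
    (hF : ∀ G ∈ gcls T G0, F (φ G) = f G - m)
    (G : Omega d) (hG : G ∈ gcls T G0) :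
    Bip.avg W F (φ G) = gavg b f G - m := by
  have hsub : gcls b G ⊆ gcls T G0 := by
    intro G' hG'
    have h1 : G' ∈ gcls T G := gcls_subset_of_subset hb G hG'
    rwa [gcls_eq_of_mem T G0 G hG] at h1
  have hsum : ∑ y ∈ Bip.cls W (φ G), F y = ∑ G' ∈ gcls b G, (f G' - m) := by
    symm
    refine sum_bij (fun G' _ => φ G') ?_ ?_ ?_ ?_
    · intro G' hG'
      rw [Bip.mem_cls]
      exact (hrel G hG G' (hsub hG')).mp ((mem_gcls b G G').mp hG')
    · intro G1 h1 G2 h2 h12
      exact hinj G1 (hsub h1) G2 (hsub h2) h12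
    · intro y hy
      obtain ⟨G', hG', rfl⟩ := hsurj y
      refine ⟨G', ?_, rfl⟩
      rw [mem_gcls]
      exact (hrel G hG G' hG').mpr ((Bip.mem_cls W (φ G) (φ G')).mp hy)
    · intro G' hG'
      exact (hF G' (hsub hG')).symm
  have hcard : (Bip.cls W (φ G)).card = (gcls b G).card := by
    symm
    refine card_bij (fun G' _ => φ G') ?_ ?_ ?_
    · intro G' hG'
      rw [Bip.mem_cls]
      exact (hrel G hG G' (hsub hG')).mp ((mem_gcls b G G').mp hG')
    · intro G1 h1 G2 h2 h12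
      exact hinj G1 (hsub h1) G2 (hsub h2) h12
    · intro y hy
      obtain ⟨G', hG', rfl⟩ := hsurj y
      refine ⟨G', ?_, rfl⟩
      rw [mem_gcls]
      exact (hrel G hG G' hG').mpr ((Bip.mem_cls W (φ G) (φ G')).mp hy)
  rw [Bip.avg_apply, hsum, hcard, gavg_apply, sum_sub_distrib, sum_const, nsmul_eq_mul]
  have hne := card_gcls_ne_zero b G
  field_simp

/-- Class-level transfer of the three-row inequality. -/
theorem class_transfer (T b1 b2 b3 : Finset (Fin n)) (hb1 : b1 ⊆ T) (hb2 : b2 ⊆ T)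
    (hb3 : b3 ⊆ T) (G0 : Omega d) (i j k : R)
    (φ : Omega d → Bip.Tab r c)
    (hinj : ∀ G ∈ gcls T G0, ∀ G' ∈ gcls T G0, φ G = φ G' → G = G')
    (hsurj : ∀ y : Bip.Tab r c, ∃ G ∈ gcls T G0, φ G = y)
    (h1 : ∀ G ∈ gcls T G0, ∀ G' ∈ gcls T G0,
      GAgree b1 G.1 G'.1 ↔ Bip.AgreeOff {j, k} (φ G).1 (φ G').1)
    (h2 : ∀ G ∈ gcls T G0, ∀ G' ∈ gcls T G0,
      GAgree b2 G.1 G'.1 ↔ Bip.AgreeOff {i, k} (φ G).1 (φ G').1)
    (h3 : ∀ G ∈ gcls T G0, ∀ G' ∈ gcls T G0,
      GAgree b3 G.1 G'.1 ↔ Bip.AgreeOff {i, j} (φ G).1 (φ G').1)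
    (hall : ∀ x y : Bip.Tab r c, Bip.AgreeOff {i, j, k} x.1 y.1)
    (hthree : ∀ F : Bip.Tab r c → ℝ, Bip.avg {i, j, k} F = 0 →
      ip F (Bip.S3 i j k F) ≤ 2 * ip F F)
    (f : Omega d → ℝ) :
    ∑ G ∈ gcls T G0, f G * (gavg b1 f G + gavg b2 f G + gavg b3 f G)
      ≤ 2 * ∑ G ∈ gcls T G0, f G ^ 2
        + (∑ G ∈ gcls T G0, f G) ^ 2 / ((gcls T G0).card : ℝ) := by
  set N : ℝ := ((gcls T G0).card : ℝ) with hN
  have hNne : N ≠ 0 := card_gcls_ne_zero T G0
  set m : ℝ := (∑ G ∈ gcls T G0, f G) / N with hm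
  -- the inverse map
  have hψ : ∀ y : Bip.Tab r c, ∃ G, G ∈ gcls T G0 ∧ φ G = y := fun y => by
    obtain ⟨G, hG, hy⟩ := hsurj y
    exact ⟨G, hG, hy⟩
  choose ψ hψ1 hψ2 using hψ
  have hψφ : ∀ G ∈ gcls T G0, ψ (φ G) = G := fun G hG =>
    hinj _ (hψ1 (φ G)) G hG (hψ2 (φ G))
  set F : Bip.Tab r c → ℝ := fun y => f (ψ y) - m with hFdef
  have hF : ∀ G ∈ gcls T G0, F (φ G) = f G - m := by
    intro G hG
    simp only [hFdef, hψφ G hG]
  -- sums over tables are sums over the class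
  have hsumT : ∀ g : Bip.Tab r c → ℝ, ∑ y, g y = ∑ G ∈ gcls T G0, g (φ G) := by
    intro g
    symm
    refine sum_bij (fun G _ => φ G) (fun _ _ => mem_univ _) ?_ ?_ (fun _ _ => rfl)
    · intro G1 hG1 G2 hG2 h12
      exact hinj G1 hG1 G2 hG2 h12
    · intro y _
      obtain ⟨G, hG, hy⟩ := hsurj y
      exact ⟨G, hG, hy⟩
  have hsumf : ∑ G ∈ gcls T G0, (f G - m) = 0 := by
    rw [sum_sub_distrib, sum_const, nsmul_eq_mul, hm]
    field_simp
    ring
  -- the mean of `F` over all tables vanishes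
  have hF0 : Bip.avg {i, j, k} F = 0 := by
    funext x
    rw [Bip.avg_apply]
    have hcls : Bip.cls {i, j, k} x = univ := by
      ext y
      simp only [mem_univ, iff_true]
      exact (Bip.mem_cls _ x y).mpr (hall x y)
    rw [hcls, hsumT F, sum_congr rfl hF, hsumf]
    simp
  have hmain := hthree F hF0
  -- translate
  have t1 : ∀ G ∈ gcls T G0, Bip.S3 i j k F (φ G)
      = (gavg b1 f G + gavg b2 f G + gavg b3 f G) - 3 * m := by
    intro G hG
    unfold Bip.S3
    rw [avg_transfer T b1 hb1 G0 {j, k} φ hinj hsurj h1 f F m hF G hG,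
      avg_transfer T b2 hb2 G0 {i, k} φ hinj hsurj h2 f F m hF G hG,
      avg_transfer T b3 hb3 G0 {i, j} φ hinj hsurj h3 f F m hF G hG]
    ring
  have e1 : ip F (Bip.S3 i j k F)
      = ∑ G ∈ gcls T G0, (f G - m) * ((gavg b1 f G + gavg b2 f G + gavg b3 f G) - 3 * m) := by
    unfold ip
    rw [hsumT]
    refine sum_congr rfl fun G hG => ?_
    rw [hF G hG, t1 G hG]
  have e2 : ip F F = ∑ G ∈ gcls T G0, (f G - m) * (f G - m) := by
    unfold ip
    rw [hsumT]
    refine sum_congr rfl fun G hG => ?_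
    rw [hF G hG]
  rw [e1, e2] at hmain
  -- expand
  have s1 := sum_gcls_gavg hb1 f G0
  have s2 := sum_gcls_gavg hb2 f G0
  have s3 := sum_gcls_gavg hb3 f G0
  have hS : ∑ G ∈ gcls T G0, f G = m * N := by
    rw [hm]
    field_simp
  have x1 : ∑ G ∈ gcls T G0, (f G - m) * ((gavg b1 f G + gavg b2 f G + gavg b3 f G) - 3 * m)
      = ∑ G ∈ gcls T G0, f G * (gavg b1 f G + gavg b2 f G + gavg b3 f G)
        - 3 * m * ∑ G ∈ gcls T G0, f G
        - m * (∑ G ∈ gcls T G0, gavg b1 f G + ∑ G ∈ gcls T G0, gavg b2 f G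
            + ∑ G ∈ gcls T G0, gavg b3 f G)
        + 3 * m ^ 2 * N := by
    rw [← sum_add_distrib, ← sum_add_distrib, mul_sum, mul_sum, ← sum_sub_distrib,
      ← sum_sub_distrib]
    have : 3 * m ^ 2 * N = ∑ _G ∈ gcls T G0, 3 * m ^ 2 := by
      rw [sum_const, nsmul_eq_mul, hN]
      ring
    rw [this, ← sum_add_distrib]
    exact sum_congr rfl fun G _ => by ring
  have x2 : ∑ G ∈ gcls T G0, (f G - m) * (f G - m)
      = ∑ G ∈ gcls T G0, f G ^ 2 - 2 * m * ∑ G ∈ gcls T G0, f G + m ^ 2 * N := by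
    rw [mul_sum, ← sum_sub_distrib]
    have : m ^ 2 * N = ∑ _G ∈ gcls T G0, m ^ 2 := by
      rw [sum_const, nsmul_eq_mul, hN]
      ring
    rw [this, ← sum_add_distrib]
    exact sum_congr rfl fun G _ => by ring
  rw [x1, x2, s1, s2, s3, hS] at hmain
  have x3 : (∑ G ∈ gcls T G0, f G) ^ 2 / N = m ^ 2 * N := by
    rw [hS]
    field_simp
  rw [x3]
  nlinarith [hmain]

end transfer

end Vale.Agent.Lib.P335.H2
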